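import Mathlib

namespace Vale.Agent.Results.P192.PositiveDeficiencyNotPeriodic

open Matrix

/-- The abelianisation-type map recording exponent sums of the generators. -/
noncomputable def expSum (n : ℕ) : FreeGroup (Fin n) →* Multiplicative (Fin n → ℤ) :=
  FreeGroup.lift (fun i => Multiplicative.ofAdd (Pi.single i (1 : ℤ)))

/-- Pairing with a fixed integer vector. -/
def pairing (n : ℕ) (t : Fin n → ℤ) : (Fin n → ℤ) →+ ℤ where
  toFun w := ∑ j, w j * t j
  map_zero' := by simp
  map_add' := by
    intro a b
    simp [add_mul, Finset.sum_add_distrib]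

theorem lift_eq (n : ℕ) (t : Fin n → ℤ) :
    (FreeGroup.lift (fun j => Multiplicative.ofAdd (t j)) : FreeGroup (Fin n) →* Multiplicative ℤ)
      = (AddMonoidHom.toMultiplicative (pairing n t)).comp (expSum n) := by
  apply FreeGroup.ext_hom
  intro a
  simp [expSum, pairing, Pi.single_apply]

/-- If an integer vector `t` pairs to zero with the exponent-sum vector of every relator, then
any generator `i` with `t i ≠ 0` has infinite order in the presented group. -/
theorem infinite_order_of_orthogonal (n : ℕ) (rels : Set (FreeGroup (Fin n))) (t : Fin n → ℤ)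
    (ht : ∀ r ∈ rels, pairing n t (Multiplicative.toAdd (expSum n r)) = 0)
    (i : Fin n) (hi : t i ≠ 0) :
    ¬ IsOfFinOrder (PresentedGroup.of i : PresentedGroup rels) := by
  have hrel : ∀ r ∈ rels,
      (FreeGroup.lift (fun j => Multiplicative.ofAdd (t j)) : FreeGroup (Fin n) →* Multiplicative ℤ) r
        = 1 := by
    intro r hr
    rw [lift_eq]
    simp only [MonoidHom.comp_apply, AddMonoidHom.toMultiplicative_apply_apply]
    rw [ht r hr]
    rfl
  intro hfin
  have h2 := (PresentedGroup.toGroup hrel).isOfFinOrder hfin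
  rw [PresentedGroup.toGroup.of, isOfFinOrder_iff_pow_eq_one] at h2
  obtain ⟨k, hk, hk1⟩ := h2
  rw [← ofAdd_nsmul] at hk1
  have h3 : t i = 0 ∨ k = 0 := by
    have := congrArg Multiplicative.toAdd hk1
    simpa using this
  rcases h3 with h | h
  · exact hi h
  · omega

theorem result (n : ℕ) (rels : Finset (FreeGroup (Fin n))) (h : rels.card < n) :
    ∃ i : Fin n,
      ¬ IsOfFinOrder (PresentedGroup.of i : PresentedGroup (rels : Set (FreeGroup (Fin n)))) := by
  by_cases h0 : 0 < rels.card
  · -- Siegel's lemma gives a nonzero integer vector orthogonal to all relators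
    let A : Matrix (↥rels) (Fin n) ℤ := fun r j => (Multiplicative.toAdd (expSum n r.1)) j
    have hc : Fintype.card (↥rels) < Fintype.card (Fin n) := by simpa using h
    have hc0 : 0 < Fintype.card (↥rels) := by simpa using h0
    obtain ⟨t, ht0, htA, -⟩ := Int.Matrix.exists_ne_zero_int_vec_norm_le A hc hc0
    obtain ⟨i, hi⟩ := Function.ne_iff.mp ht0
    refine ⟨i, infinite_order_of_orthogonal n _ t ?_ i (by simpa using hi)⟩
    intro r hr
    have := congrFun htA ⟨r, hr⟩
    simpa [Matrix.mulVec, dotProduct, pairing, A] using this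
  · have hempty : rels = ∅ := Finset.card_eq_zero.mp (by omega)
    subst hempty
    have hn : 0 < n := by omega
    refine ⟨⟨0, hn⟩, infinite_order_of_orthogonal n _ (fun _ => 1) ?_ _ (by norm_num)⟩
    intro r hr
    simp at hr

end Vale.Agent.Results.P192.PositiveDeficiencyNotPeriodic
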