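import Mathlib

/-!
P192 (finitely presented Burnside problem): positive answer on virtually solvable groups, and
extension closure of the class of groups whose finitely generated periodic subgroups are finite.

* A finitely generated periodic group with a solvable subgroup of finite index is finite.
  In particular every periodic, virtually solvable group given by a presentation on finitely
  many generators (with any set of relators) is finite.
* If `N` is a normal subgroup of `G` such that every finitely generated periodic subgroup of `N`
  is finite and every finitely generated periodic subgroup of `G ⧸ N` is finite, then every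
  finitely generated periodic subgroup of `G` is finite.
-/

namespace Vale.Agent.Results.P192.SolvableAndExtensions

universe u

/-- A group with a finite subgroup of finite index is finite. -/
theorem finite_of_finiteIndex_of_finite {G : Type u} [Group G] (H : Subgroup G)
    [H.FiniteIndex] [Finite H] : Finite G := by
  have h1 : Nat.card H ≠ 0 := Nat.card_pos.ne'
  have h2 : H.index ≠ 0 := Subgroup.FiniteIndex.index_ne_zero
  have h3 : Nat.card G ≠ 0 := by
    rw [← H.card_mul_index]
    exact mul_ne_zero h1 h2
  exact Nat.finite_of_card_ne_zero h3

/-- Finitely generated periodic solvable groups are finite. -/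
theorem finite_of_solvable (G : Type u) [Group G] [Group.FG G] [Group.IsSolvable G]
    (hper : ∀ g : G, IsOfFinOrder g) : Finite G := by
  have key : ∀ k, (derivedSeries G k).FiniteIndex := by
    intro k
    induction k with
    | zero =>
      rw [derivedSeries_zero]
      infer_instance
    | succ k ih =>
      have := ih
      have hfin : Finite (Abelianization (derivedSeries G k)) := by
        have hfgab : Group.FG (Abelianization (derivedSeries G k)) :=
          Group.fg_of_surjective (f := QuotientGroup.mk' (commutator (derivedSeries G k)))
            (QuotientGroup.mk'_surjective _)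
        apply CommGroup.finite_of_fg_isMulTorsion
        intro x
        obtain ⟨y, rfl⟩ := QuotientGroup.mk_surjective x
        have hy : IsOfFinOrder y := Submonoid.isOfFinOrder_coe.mp (hper (y : G))
        exact (QuotientGroup.mk' _).isOfFinOrder hy
      have hidx : (commutator (derivedSeries G k)).index ≠ 0 := by
        rw [Subgroup.index_eq_card]
        have : Finite (derivedSeries G k ⧸ commutator (derivedSeries G k)) := hfin
        exact Nat.card_pos.ne'
      have hmap : derivedSeries G (k + 1)
          = (commutator (derivedSeries G k)).map (derivedSeries G k).subtype := by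
        rw [Subgroup.map_subtype_commutator]
        rfl
      rw [hmap]
      constructor
      rw [Subgroup.index_map_subtype]
      exact mul_ne_zero hidx Subgroup.FiniteIndex.index_ne_zero
  obtain ⟨n, hn⟩ := Group.IsSolvable.solvable (G := G)
  have hbot := key n
  rw [hn] at hbot
  exact finite_of_finiteIndex_of_finite (⊥ : Subgroup G)

/-- Finitely generated periodic virtually solvable groups are finite. -/
theorem finite_of_virtually_solvable (G : Type u) [Group G] [Group.FG G] (H : Subgroup G)
    [H.FiniteIndex] [Group.IsSolvable H] (hper : ∀ g : G, IsOfFinOrder g) : Finite G := by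
  have : Finite H :=
    finite_of_solvable H (fun h => Submonoid.isOfFinOrder_coe.mp (hper (h : G)))
  exact finite_of_finiteIndex_of_finite H

/-- Extension closure. -/
theorem extension_closure (G : Type u) [Group G] (N : Subgroup G) [N.Normal]
    (hN : ∀ H : Subgroup G, H ≤ N → H.FG → (∀ h ∈ H, IsOfFinOrder h) → (H : Set G).Finite)
    (hQ : ∀ K : Subgroup (G ⧸ N), K.FG → (∀ x ∈ K, IsOfFinOrder x) →
      (K : Set (G ⧸ N)).Finite) :
    ∀ H : Subgroup G, H.FG → (∀ h ∈ H, IsOfFinOrder h) → (H : Set G).Finite := by
  intro H hfg hper
  have : Group.FG H := (Group.fg_iff_subgroup_fg H).mpr hfg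
  have hmapfg : (H.map (QuotientGroup.mk' N)).FG := by
    rw [← MonoidHom.domRestrict_range]
    exact (Group.fg_iff_subgroup_fg _).mp inferInstance
  have hK : ((H.map (QuotientGroup.mk' N) : Subgroup (G ⧸ N)) : Set (G ⧸ N)).Finite := by
    apply hQ _ hmapfg
    rintro _ ⟨h, hh, rfl⟩
    exact (QuotientGroup.mk' N).isOfFinOrder (hper h hh)
  have hidx : (N.subgroupOf H).index ≠ 0 := by
    have h1 : ((QuotientGroup.mk' N).domRestrict H).ker = N.subgroupOf H := by
      rw [MonoidHom.ker_domRestrict, QuotientGroup.ker_mk']
    rw [← h1, Subgroup.index_ker, MonoidHom.domRestrict_range]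
    have : Finite (H.map (QuotientGroup.mk' N)) := hK.to_subtype
    exact Nat.card_pos.ne'
  have : (N.subgroupOf H).FiniteIndex := ⟨hidx⟩
  have hfg2 : (N ⊓ H).FG := by
    rw [← Subgroup.subgroupOf_map_subtype, ← MonoidHom.domRestrict_range]
    exact (Group.fg_iff_subgroup_fg _).mp inferInstance
  have hfinNH : ((N ⊓ H : Subgroup G) : Set G).Finite :=
    hN (N ⊓ H) inf_le_left hfg2 (fun h hh => hper h hh.2)
  have hfin2 : ((N.subgroupOf H : Subgroup H) : Set H).Finite := by
    have hsub : ((N.subgroupOf H : Subgroup H) : Set H)
        ⊆ H.subtype ⁻¹' ((N ⊓ H : Subgroup G) : Set G) := by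
      intro x hx
      exact ⟨Subgroup.mem_subgroupOf.mp hx, x.2⟩
    exact (Set.Finite.preimage (Set.injOn_of_injective H.subtype_injective) hfinNH).subset hsub
  have : Finite (N.subgroupOf H) := hfin2.to_subtype
  have : Finite H := finite_of_finiteIndex_of_finite (N.subgroupOf H)
  exact Set.toFinite _

/-- **Result.**  (1) A finitely generated periodic group with a solvable subgroup of finite
index is finite.  (2) In particular a periodic group given by a presentation on finitely many
generators, with any set of relators, that has a solvable subgroup of finite index is finite.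
(3) The class of groups all of whose finitely generated periodic subgroups are finite is closed
under extensions. -/
theorem result :
    (∀ (G : Type u) [Group G] [Group.FG G] (H : Subgroup G) [H.FiniteIndex] [Group.IsSolvable H],
      (∀ g : G, IsOfFinOrder g) → Finite G) ∧
    (∀ (n : ℕ) (rels : Set (FreeGroup (Fin n))) (H : Subgroup (PresentedGroup rels))
      [H.FiniteIndex] [Group.IsSolvable H],
      (∀ g : PresentedGroup rels, IsOfFinOrder g) → Finite (PresentedGroup rels)) ∧
    (∀ (G : Type u) [Group G] (N : Subgroup G) [N.Normal],
      (∀ H : Subgroup G, H ≤ N → H.FG → (∀ h ∈ H, IsOfFinOrder h) → (H : Set G).Finite) →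
      (∀ K : Subgroup (G ⧸ N), K.FG → (∀ x ∈ K, IsOfFinOrder x) →
        (K : Set (G ⧸ N)).Finite) →
      ∀ H : Subgroup G, H.FG → (∀ h ∈ H, IsOfFinOrder h) → (H : Set G).Finite) := by
  refine ⟨fun G _ _ H _ _ hper => finite_of_virtually_solvable G H hper, ?_,
    fun G _ N _ hN hQ => extension_closure G N hN hQ⟩
  intro n rels H _ _ hper
  have : Group.FG (PresentedGroup rels) :=
    Group.fg_of_surjective (f := PresentedGroup.mk rels) (QuotientGroup.mk'_surjective _)
  exact finite_of_virtually_solvable (PresentedGroup rels) H hper

end Vale.Agent.Results.P192.SolvableAndExtensions
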