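import Mathlib
import Vale.Agent.Results.P192.SolvableAndExtensions

/-!
P192 (finitely presented Burnside problem), focused form of the first conjunct of
`P192.SolvableAndExtensions`: a finitely generated periodic group that has a solvable subgroup
of finite index is finite.  Only Mathlib notions occur in the statement.
-/

namespace Vale.Agent.Results.P192.VirtuallySolvablePeriodic

universe u

/-- Every finitely generated periodic group with a solvable subgroup of finite index is
finite. -/
theorem result (G : Type u) [Group G] [Group.FG G] (H : Subgroup G) [H.FiniteIndex]
    [Group.IsSolvable H] (hper : ∀ g : G, IsOfFinOrder g) : Finite G :=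
  (Vale.Agent.Results.P192.SolvableAndExtensions.result.{u}).1 G H hper

end Vale.Agent.Results.P192.VirtuallySolvablePeriodic
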